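import Vale.Agent.Lib.P154.Neg.LP.B4730.D

/-!
Part of the computations of a certificate for a restricted range of `theta`.
-/

namespace Vale.Agent.Lib.P154.Neg.B4730

open Vale.Agent.Lib.P154.Neg.Kron Vale.Agent.Lib.P154.Neg Vale.Agent.Lib.P154.Neg.Cst

theorem ctQ3_11 : checkTree 4 (eQ3t C) btQ3_5r tQ3_11 = true := by decide +kernel

theorem ctQ3_12 : checkTree 4 (eQ3t C) btQ3_2r tQ3_12 = true := by decide +kernel

theorem ctQ3_15 : checkTree 4 (eQ3t C) btQ3_14l tQ3_15 = true := by decide +kernel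

theorem ctQ3_18 : checkTree 4 (eQ3t C) btQ3_17l tQ3_18 = true := by decide +kernel

theorem ctQ3_20 : checkTree 4 (eQ3t C) btQ3_19l tQ3_20 = true := by decide +kernel

theorem ctQ3_23 : checkTree 4 (eQ3t C) btQ3_22l tQ3_23 = true := by decide +kernel

theorem ctQ3_26 : checkTree 4 (eQ3t C) btQ3_25l tQ3_26 = true := by decide +kernel

theorem ctQ3_28 : checkTree 4 (eQ3t C) btQ3_27l tQ3_28 = true := by decide +kernel

end Vale.Agent.Lib.P154.Neg.B4730
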