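import Vale.Agent.Lib.P154.Neg.LP.B4730.D

/-!
Part of the computations of a certificate for a restricted range of `theta`.
-/

namespace Vale.Agent.Lib.P154.Neg.B4730

open Vale.Agent.Lib.P154.Neg.Kron Vale.Agent.Lib.P154.Neg Vale.Agent.Lib.P154.Neg.Cst

theorem ctQ3_36 : checkTree 4 (eQ3t C) btQ3_35l tQ3_36 = true := by decide +kernel

theorem ctQ3_38 : checkTree 4 (eQ3t C) btQ3_37l tQ3_38 = true := by decide +kernel

theorem ctQ3_39 : checkTree 4 (eQ3t C) btQ3_37r tQ3_39 = true := by decide +kernel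

theorem ctQ3_40 : checkTree 4 (eQ3t C) btQ3_34r tQ3_40 = true := by decide +kernel

end Vale.Agent.Lib.P154.Neg.B4730
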